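import Mathlib

/-! Chunk R153L-BINSUM: a numerical lemma on binomial averages. -/

set_option autoImplicit false

namespace Crest.Agent.RS

open Finset

/-- binomial second moment: `Σ_ν C(m,ν) 2^(-m) (ν - m/2)^2 = m/4` -/
theorem bin_var (m : ℕ) :
    ∑ ν ∈ range (m + 1), (m.choose ν : ℝ) * (1 / 2) ^ m * ((ν : ℝ) - (m : ℝ) / 2) ^ 2 = (m : ℝ) / 4 := by
  have h := congrArg (Polynomial.eval (1 / 2 : ℝ)) (bernsteinPolynomial.variance ℝ m)
  rw [Polynomial.eval_finsetSum] at h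
  have h2 : ∀ ν ∈ range (m + 1), Polynomial.eval (1 / 2 : ℝ)
      ((m • Polynomial.X - (ν : Polynomial ℝ)) ^ 2 * bernsteinPolynomial ℝ m ν) =
      (m.choose ν : ℝ) * (1 / 2) ^ m * ((ν : ℝ) - (m : ℝ) / 2) ^ 2 := by
    intro ν hν
    have hν' : ν ≤ m := by
      have := mem_range.mp hν
      omega
    simp only [bernsteinPolynomial, Polynomial.eval_mul, Polynomial.eval_pow, Polynomial.eval_sub,
      Polynomial.eval_natCast, Polynomial.eval_X, Polynomial.eval_one, nsmul_eq_mul]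
    have e1 : (1 - 1 / 2 : ℝ) = 1 / 2 := by norm_num
    have e2 : (1 / 2 : ℝ) ^ m = (1 / 2) ^ ν * (1 / 2) ^ (m - ν) := by
      rw [← pow_add]
      congr 1
      omega
    rw [e1, e2]
    ring
  rw [Finset.sum_congr rfl h2] at h
  rw [h]
  simp only [Polynomial.eval_mul, Polynomial.eval_sub,
      Polynomial.eval_natCast, Polynomial.eval_X, Polynomial.eval_one, nsmul_eq_mul]
  ring

/-- the weights sum to one -/
theorem bin_one (m : ℕ) :
    ∑ ν ∈ range (m + 1), (m.choose ν : ℝ) * (1 / 2) ^ m = 1 := by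
  rw [← Finset.sum_mul]
  have h := Nat.sum_range_choose m
  have h' : (∑ ν ∈ range (m + 1), (m.choose ν : ℝ)) = 2 ^ m := by exact_mod_cast h
  rw [h', ← mul_pow]
  norm_num

theorem bin_sum_tail {f : ℕ → ℝ} {B : ℝ} (hB : 0 ≤ B) (h1 : ∀ j, f j ≤ 1)
    (h2 : ∀ j : ℕ, f j ≤ B / (1 + j) ^ 2) {K : ℕ} (hK : 1 ≤ K) (N : ℕ) :
    ∑ j ∈ range N, f j ≤ if N ≤ K then (N : ℝ) else K + B / K - B / N := by
  induction N with
  | zero => simp
  | succ N ih =>
    rw [Finset.sum_range_succ]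
    by_cases hN : N + 1 ≤ K
    · have hN' : N ≤ K := by omega
      rw [if_pos hN'] at ih
      rw [if_pos hN]
      push_cast
      linarith [h1 N]
    · rw [if_neg hN]
      have hKN : K ≤ N := by omega
      have hN0 : (0 : ℝ) < N := by
        have : 0 < N := by omega
        exact_mod_cast this
      have ih' : ∑ j ∈ range N, f j ≤ K + B / K - B / N := by
        by_cases h3 : N ≤ K
        · have : N = K := by omega
          subst this
          rw [if_pos h3] at ih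
          linarith
        · rw [if_neg h3] at ih
          exact ih
      have h4 : B / (1 + (N : ℝ)) ^ 2 ≤ B / N - B / ((N + 1 : ℕ) : ℝ) := by
        push_cast
        rw [div_sub_div _ _ hN0.ne' (by positivity), div_le_div_iff₀ (by positivity) (by positivity)]
        nlinarith [mul_nonneg hB hN0.le, mul_nonneg hB (mul_nonneg hN0.le hN0.le),
          mul_nonneg hB (mul_nonneg hN0.le (mul_nonneg hN0.le hN0.le))]
      linarith [h2 N]

/-- Let `p ν ∈ [0,1]` satisfy `(μ-ν)^2 (1 - p ν) ≤ A` for `ν ≤ μ`, and `μ ≤ A`, `1 ≤ A`. For `m < 2μ`, `t = 2μ - m > 0`: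
`Σ_ν Bin(m,1/2)(ν) (1 - p ν) ≤ 16A/t^2 + P(Bin > μ - t/4) ≤ 16A/t^2 + (m/4)/(t/4)^2 ≤ 24A/t^2`
(`μ - t/4 = m/2 + t/4`, `bin_var`), and it is `≤ 1`. Summing over `m < ⌊2μ⌋` (`m = ⌊2μ⌋-1-j`, `t ≥ 1+j`):
`Σ_j min(2, 48A/(1+j)^2) ≤ 2√(24A) + 48A(1/√(24A) + 1/(24A)) ≤ 22√A`; and `⌊2μ⌋ ≥ 2μ - 1`. -/
theorem bin_sum {p : ℕ → ℝ} (hp0 : ∀ ν, 0 ≤ p ν) (hp1 : ∀ ν, p ν ≤ 1) {μ A : ℝ} (hμ : 0 ≤ μ)
    (hA : 1 ≤ A) (hμA : μ ≤ A) (h : ∀ ν : ℕ, (ν : ℝ) ≤ μ → (μ - ν) ^ 2 * (1 - p ν) ≤ A) :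
    2 * μ - 100 * Real.sqrt A ≤ ∑ m ∈ range ⌊2 * μ⌋₊,
      (2 * (∑ ν ∈ range (m + 1), (m.choose ν : ℝ) * (1 / 2) ^ m * p ν) - 1) := by
  set M : ℕ := ⌊2 * μ⌋₊ with hM
  have hM1 : 2 * μ - 1 < M := Nat.sub_one_lt_floor _
  have hM2 : (M : ℝ) ≤ 2 * μ := Nat.floor_le (by positivity)
  set e : ℕ → ℝ := fun m => ∑ ν ∈ range (m + 1), (m.choose ν : ℝ) * (1 / 2) ^ m * (1 - p ν) with he
  have hw : ∀ m ν : ℕ, (0 : ℝ) ≤ (m.choose ν : ℝ) * (1 / 2) ^ m := fun m ν => by positivity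
  have heq : ∀ m, 2 * (∑ ν ∈ range (m + 1), (m.choose ν : ℝ) * (1 / 2) ^ m * p ν) - 1 =
      1 - 2 * e m := by
    intro m
    have : e m = 1 - ∑ ν ∈ range (m + 1), (m.choose ν : ℝ) * (1 / 2) ^ m * p ν := by
      have h1 := bin_one m
      have h2 : e m + ∑ ν ∈ range (m + 1), (m.choose ν : ℝ) * (1 / 2) ^ m * p ν =
          ∑ ν ∈ range (m + 1), (m.choose ν : ℝ) * (1 / 2) ^ m := by
        simp only [he]
        rw [← Finset.sum_add_distrib]
        refine Finset.sum_congr rfl fun ν _ => by ring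
      linarith
    rw [this]
    ring
  have he1 : ∀ m, e m ≤ 1 := by
    intro m
    rw [← bin_one m]
    refine Finset.sum_le_sum fun ν _ => ?_
    nlinarith [hw m ν, hp0 ν]
  have he2 : ∀ m : ℕ, (m : ℝ) < 2 * μ → e m ≤ 24 * A / (2 * μ - m) ^ 2 := by
    intro m hm
    have ht : 0 < 2 * μ - m := by linarith
    have hpt : ∀ ν : ℕ, 1 - p ν ≤ 16 * A / (2 * μ - m) ^ 2 +
        16 * ((ν : ℝ) - (m : ℝ) / 2) ^ 2 / (2 * μ - m) ^ 2 := by
      intro ν
      rw [← add_div, le_div_iff₀ (by positivity)]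
      by_cases hν : (ν : ℝ) ≤ μ - (2 * μ - m) / 4
      · have h1 := h ν (by linarith)
        have h2 : (2 * μ - m) ^ 2 ≤ 16 * (μ - ν) ^ 2 := by nlinarith
        have h3 : (1 - p ν) * (2 * μ - m) ^ 2 ≤ (1 - p ν) * (16 * (μ - ν) ^ 2) :=
          mul_le_mul_of_nonneg_left h2 (by linarith [hp1 ν])
        nlinarith [sq_nonneg ((ν : ℝ) - (m : ℝ) / 2)]
      · push Not at hν
        have h2 : (2 * μ - m) ^ 2 ≤ 16 * ((ν : ℝ) - (m : ℝ) / 2) ^ 2 := by nlinarith
        have h3 : (1 - p ν) * (2 * μ - m) ^ 2 ≤ 1 * (2 * μ - m) ^ 2 :=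
          mul_le_mul_of_nonneg_right (by linarith [hp0 ν]) (by positivity)
        nlinarith
    calc e m ≤ ∑ ν ∈ range (m + 1), (m.choose ν : ℝ) * (1 / 2) ^ m *
          (16 * A / (2 * μ - m) ^ 2 + 16 * ((ν : ℝ) - (m : ℝ) / 2) ^ 2 / (2 * μ - m) ^ 2) :=
          Finset.sum_le_sum fun ν _ => mul_le_mul_of_nonneg_left (hpt ν) (hw m ν)
      _ = 16 * A / (2 * μ - m) ^ 2 * (∑ ν ∈ range (m + 1), (m.choose ν : ℝ) * (1 / 2) ^ m) +
          16 / (2 * μ - m) ^ 2 * (∑ ν ∈ range (m + 1), (m.choose ν : ℝ) * (1 / 2) ^ m *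
            ((ν : ℝ) - (m : ℝ) / 2) ^ 2) := by
          rw [Finset.mul_sum, Finset.mul_sum, ← Finset.sum_add_distrib]
          refine Finset.sum_congr rfl fun ν _ => ?_
          ring
      _ = (16 * A + 4 * m) / (2 * μ - m) ^ 2 := by
          rw [bin_one, bin_var]
          ring
      _ ≤ 24 * A / (2 * μ - m) ^ 2 := by
          apply div_le_div_of_nonneg_right _ (by positivity)
          linarith
  have hsum : ∑ m ∈ range M, e m ≤ 2 * Real.sqrt (24 * A) + 1 := by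
    rw [← Finset.sum_range_reflect]
    set f : ℕ → ℝ := fun j => if j < M then e (M - 1 - j) else 0 with hf
    have hff : ∑ j ∈ range M, e (M - 1 - j) = ∑ j ∈ range M, f j := by
      refine Finset.sum_congr rfl fun j hj => ?_
      simp only [hf]
      rw [if_pos (mem_range.mp hj)]
    rw [hff]
    have hf1 : ∀ j, f j ≤ 1 := by
      intro j
      simp only [hf]
      split_ifs
      · exact he1 _
      · norm_num
    have hf2 : ∀ j : ℕ, f j ≤ 24 * A / (1 + j) ^ 2 := by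
      intro j
      simp only [hf]
      split_ifs with hj
      · have hc : ((M - 1 - j : ℕ) : ℝ) = (M : ℝ) - 1 - j := by
          rw [Nat.cast_sub (by omega), Nat.cast_sub (by omega)]
          norm_num
        have h1 : ((M - 1 - j : ℕ) : ℝ) < 2 * μ := by
          rw [hc]
          have : (0 : ℝ) ≤ j := Nat.cast_nonneg j
          linarith
        refine (he2 _ h1).trans ?_
        apply div_le_div_of_nonneg_left (by positivity) (by positivity)
        rw [hc]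
        have : (0 : ℝ) ≤ j := Nat.cast_nonneg j
        apply pow_le_pow_left₀ (by positivity)
        linarith
      · positivity
    set K : ℕ := ⌈Real.sqrt (24 * A)⌉₊ with hKdef
    have hs : 0 < Real.sqrt (24 * A) := Real.sqrt_pos.mpr (by linarith)
    have hK1 : 1 ≤ K := Nat.one_le_iff_ne_zero.mpr (Nat.ceil_pos.mpr hs).ne'
    have hK2 : Real.sqrt (24 * A) ≤ K := Nat.le_ceil _
    have hK3 : (K : ℝ) < Real.sqrt (24 * A) + 1 := Nat.ceil_lt_add_one hs.le
    have hBK : 24 * A / K ≤ Real.sqrt (24 * A) := by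
      rw [div_le_iff₀ (by linarith)]
      have := Real.mul_self_sqrt (show (0 : ℝ) ≤ 24 * A by linarith)
      nlinarith
    have hb := bin_sum_tail (B := 24 * A) (by linarith) hf1 hf2 hK1 M
    refine hb.trans ?_
    split_ifs with hMK
    · have : (M : ℝ) ≤ K := by exact_mod_cast hMK
      linarith
    · have : 0 ≤ 24 * A / (M : ℝ) := by positivity
      linarith
  have hfin : ∑ m ∈ range M, (2 * (∑ ν ∈ range (m + 1), (m.choose ν : ℝ) * (1 / 2) ^ m * p ν) - 1) =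
      M - 2 * ∑ m ∈ range M, e m := by
    rw [Finset.sum_congr rfl fun m _ => heq m, Finset.sum_sub_distrib, ← Finset.mul_sum]
    simp
  rw [hfin]
  have hsA : 1 ≤ Real.sqrt A := by
    rw [show (1 : ℝ) = Real.sqrt 1 by simp]
    exact Real.sqrt_le_sqrt hA
  have h24 : Real.sqrt (24 * A) ≤ 5 * Real.sqrt A := by
    rw [show (5 : ℝ) * Real.sqrt A = Real.sqrt (25 * A) by
      rw [Real.sqrt_mul (by norm_num), show (25 : ℝ) = 5 ^ 2 by norm_num, Real.sqrt_sq (by norm_num)]]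
    exact Real.sqrt_le_sqrt (by linarith)
  linarith

end Crest.Agent.RS
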