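import Mathlib
import Crest.Agent.RS.Defs
import Crest.Agent.RS.Kill
import Crest.Agent.RS.SatProb

/-!
Row 153, S0218, lower side: interpolation between one formula on `n + n` variables and two
independent formulas on `n` variables.
-/

set_option autoImplicit false

namespace Crest.Agent.RS

open Finset Crest.ProbabilityR.RandomSAT

/-- mean hitting time `E H_n = Σ_m satProb k n m` -/
noncomputable def mu (k n : ℕ) : ℝ := ∑' m : ℕ, satProb k n m

/-- a clause of block `b` (`false`: variables `< n`, `true`: variables `≥ n`) on `n + n` variables -/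
def blk {n : ℕ} (bc : Bool × Clause 3 n) : GC (n + n) :=
  (toGC bc.2).map (fun y => (if bc.1 then Fin.natAdd n y.1 else Fin.castAdd n y.1, y.2))

open Classical in
/-- probability that `r` global clauses and `s` local clauses (block uniform) are satisfiable -/
noncomputable def sP (n r s : ℕ) : ℝ :=
  lavg (Clause 3 (n + n)) r (fun G => lavg (Bool × Clause 3 n) s (fun L =>
    if Alive 0 (G.map toGC ++ L.map blk) then (1 : ℝ) else 0))

/-- number of dead literals in block `b` -/
noncomputable def dB {n : ℕ} (b : Bool) (F : List (GC (n + n))) : ℕ :=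
  ((deadSet 0 F).filter (fun y => decide (n ≤ y.1.val) = b)).card

/-- mean square of the block backbone fractions -/
noncomputable def Qb {n : ℕ} (F : List (GC (n + n))) : ℝ :=
  (1 / 2) * (((dB false F : ℝ) / n) ^ 2 + ((dB true F : ℝ) / n) ^ 2)

open Classical in
/-- `E[ 1(alive) Qb ]` for `r` global and `s` local clauses -/
noncomputable def Wq (n r s : ℕ) : ℝ :=
  lavg (Clause 3 (n + n)) r (fun G => lavg (Bool × Clause 3 n) s (fun L =>
    if Alive 0 (G.map toGC ++ L.map blk) then Qb (G.map toGC ++ L.map blk) else 0))

end Crest.Agent.RS
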