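import Mathlib
import Crest.Agent.RL.Defs
import Crest.Agent.RS.Mix

/-! Chunk R153L-BLOCKS: only local clauses. -/

set_option autoImplicit false

namespace Crest.Agent.RS

open Finset Crest.ProbabilityR.RandomSAT

private theorem alive_zero_forall {n : ℕ} (F : List (GC n)) :
    Alive 0 F ↔ ∃ σ : Fin n → Bool, ∀ c ∈ F, GSat σ c := by
  unfold Alive viol
  refine exists_congr fun σ => ?_
  rw [Nat.le_zero, List.countP_eq_zero]
  simp

/-- the block of a local clause -/
private noncomputable def phi {n : ℕ} (bc : Bool × Clause 3 n) : GC n ⊕ GC n :=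
  if bc.1 then Sum.inr (toGC bc.2) else Sum.inl (toGC bc.2)

private theorem alive_blk {n : ℕ} (L : List (Bool × Clause 3 n))
    (hA : Alive 0 (lefts (L.map phi))) (hB : Alive 0 (rights (L.map phi))) :
    Alive 0 (L.map blk) := by
  rw [alive_zero_forall] at hA hB ⊢
  obtain ⟨σ₁, h₁⟩ := hA
  obtain ⟨σ₂, h₂⟩ := hB
  refine ⟨Fin.append σ₁ σ₂, fun c hc => ?_⟩
  rw [List.mem_map] at hc
  obtain ⟨⟨b, c⟩, hbc, rfl⟩ := hc
  cases b
  · have hm : toGC c ∈ lefts (L.map phi) := by
      unfold lefts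
      rw [List.mem_filterMap]
      exact ⟨Sum.inl (toGC c), List.mem_map.2 ⟨_, hbc, by simp [phi]⟩, rfl⟩
    obtain ⟨y, hy, hy2⟩ := h₁ _ hm
    refine ⟨(Fin.castAdd n y.1, y.2), ?_, ?_⟩
    · unfold blk
      rw [List.mem_map]
      exact ⟨y, hy, by simp⟩
    · simpa using hy2
  · have hm : toGC c ∈ rights (L.map phi) := by
      unfold rights
      rw [List.mem_filterMap]
      exact ⟨Sum.inr (toGC c), List.mem_map.2 ⟨_, hbc, by simp [phi]⟩, rfl⟩
    obtain ⟨y, hy, hy2⟩ := h₂ _ hm
    refine ⟨(Fin.natAdd n y.1, y.2), ?_, ?_⟩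
    · unfold blk
      rw [List.mem_map]
      exact ⟨y, hy, by simp⟩
    · show Fin.append σ₁ σ₂ (Fin.natAdd n y.1) = y.2
      rw [Fin.append_right]
      exact hy2

private theorem avg_bool (f : Bool → ℝ) : avg f = (f true + f false) / 2 := by
  unfold avg
  simp

private theorem avg_phi {n : ℕ} (h : GC n ⊕ GC n → ℝ) :
    avg (fun c : Bool × Clause 3 n => h (phi c)) =
      (1 - 1 / 2) * avg (fun a : Clause 3 n => h (Sum.inl (toGC a))) +
        1 / 2 * avg (fun b : Clause 3 n => h (Sum.inr (toGC b))) := by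
  rw [avg_prod, avg_bool]
  simp only [phi, if_true, Bool.false_eq_true, if_false]
  ring

/-- With only local clauses: the formula is satisfiable iff both block formulas are, so
`sP n 0 m ≥ P(block 1 sat) + P(block 2 sat) - 1`, and the number of clauses of each block is
`Bin(m, 1/2)`: `lavg_mix` with `φ (b,c) = if b then inr (toGC c) else inl (toGC c)`, `q = 1/2`,
`G A B = 1(Alive 0 A)` resp. `1(Alive 0 B)`; `satProb_eq`. -/
theorem sP_zero_left {n : ℕ} (hn : 3 ≤ n) (m : ℕ) :
    2 * (∑ ν ∈ range (m + 1), (m.choose ν : ℝ) * (1 / 2) ^ m * satProb 3 n ν) - 1 ≤ sP n 0 m := by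
  classical
  haveI : Nonempty (Clause 3 n) := nonempty_clause hn
  haveI : Nonempty (Bool × Clause 3 n) := ⟨(true, Classical.arbitrary _)⟩
  unfold sP
  rw [lavg_zero]
  have h1 : lavg (Bool × Clause 3 n) m (fun L =>
      ((if Alive 0 (lefts (L.map phi)) then (1 : ℝ) else 0) +
        (if Alive 0 (rights (L.map phi)) then (1 : ℝ) else 0)) - 1) ≤
      lavg (Bool × Clause 3 n) m (fun L =>
        if Alive 0 (([] : List (Clause 3 (n + n))).map toGC ++ L.map blk) then (1 : ℝ) else 0) := by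
    refine lavg_mono fun L => ?_
    rw [List.map_nil, List.nil_append]
    by_cases hA : Alive 0 (lefts (L.map phi))
    · by_cases hB : Alive 0 (rights (L.map phi))
      · rw [if_pos hA, if_pos hB, if_pos (alive_blk L hA hB)]
        norm_num
      · rw [if_pos hA, if_neg hB]
        split_ifs <;> norm_num
    · rw [if_neg hA]
      split_ifs <;> norm_num
  refine le_trans (le_of_eq ?_) h1
  rw [lavg_sub, lavg_const, lavg_add]
  have hL := lavg_mix (phi (n := n)) toGC toGC (1 / 2) avg_phi m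
    (fun A _ => if Alive 0 A then (1 : ℝ) else 0)
  have hR := lavg_mix (phi (n := n)) toGC toGC (1 / 2) avg_phi m
    (fun _ B => if Alive 0 B then (1 : ℝ) else 0)
  rw [hL, hR]
  have hpow : ∀ ν ∈ range (m + 1), (1 / 2 : ℝ) ^ ν * (1 - 1 / 2) ^ (m - ν) = (1 / 2) ^ m := by
    intro ν hν
    have : ν ≤ m := by
      have := Finset.mem_range.1 hν
      omega
    rw [show (1 - 1 / 2 : ℝ) = 1 / 2 by norm_num, ← pow_add]
    congr 1
    omega
  have eL : ∑ ν ∈ range (m + 1), (m.choose ν : ℝ) * (1 / 2) ^ ν * (1 - 1 / 2) ^ (m - ν) *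
        lavg (Clause 3 n) (m - ν) (fun L => lavg (Clause 3 n) ν (fun _ =>
          if Alive 0 (L.map toGC) then (1 : ℝ) else 0)) =
      ∑ ν ∈ range (m + 1), (m.choose ν : ℝ) * (1 / 2) ^ m * satProb 3 n ν := by
    rw [← Finset.sum_range_reflect]
    refine Finset.sum_congr rfl fun ν hν => ?_
    have hν' : ν ≤ m := by
      have := Finset.mem_range.1 hν
      omega
    have e1 : m + 1 - 1 - ν = m - ν := by omega
    have e2 : m - (m - ν) = ν := by omega
    rw [e1, e2, mul_assoc (m.choose (m - ν) : ℝ)]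
    have e3 := hpow (m - ν) (Finset.mem_range.2 (by omega))
    rw [e2] at e3
    rw [e3, Nat.choose_symm hν', satProb_eq]
    congr 1
    exact lavg_congr fun L => lavg_const _ _
  have eR : ∑ ν ∈ range (m + 1), (m.choose ν : ℝ) * (1 / 2) ^ ν * (1 - 1 / 2) ^ (m - ν) *
        lavg (Clause 3 n) (m - ν) (fun _ => lavg (Clause 3 n) ν (fun L' =>
          if Alive 0 (L'.map toGC) then (1 : ℝ) else 0)) =
      ∑ ν ∈ range (m + 1), (m.choose ν : ℝ) * (1 / 2) ^ m * satProb 3 n ν := by
    refine Finset.sum_congr rfl fun ν hν => ?_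
    rw [mul_assoc (m.choose ν : ℝ), hpow ν hν, lavg_const, satProb_eq]
  rw [eL, eR]
  ring

end Crest.Agent.RS
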