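import Mathlib
import Crest.Agent.RL.Defs
import Crest.Agent.RS.SatProb
import Crest.Agent.RS.Tail
import Crest.Agent.S0217

/-! Chunk R153L-CHEB: Chebyshev for the hitting time. -/

set_option autoImplicit false

namespace Crest.Agent.RS

open Finset Crest.ProbabilityR.RandomSAT

private theorem satProb_le_one_C {k n : ℕ} (h : k ≤ n) (m : ℕ) : satProb k n m ≤ 1 := by
  classical
  have hne := nonempty_clause h
  rw [satProb_eq]
  refine lavg_le_const fun L _ => ?_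
  split_ifs <;> norm_num

/-- the mean is at most linear (`satProb ≤ 1` for `m < C0 n`, `tail` beyond; e.g. from `RS.tail`:
`Σ_{m ≥ M} satProb ≤ Σ (2m+1) satProb ≤ C1`). -/
theorem mu_le : ∃ C : ℝ, 0 ≤ C ∧ ∀ n : ℕ, 3 ≤ n → 0 ≤ mu 3 n ∧ mu 3 n ≤ C * n := by
  obtain ⟨C0, C1, hC0, ht⟩ := tail 3 (by norm_num)
  refine ⟨C0 + 1 + max C1 0, by positivity, fun n hn => ?_⟩
  obtain ⟨hs1, hs2, htail⟩ := ht n hn
  refine ⟨tsum_nonneg fun m => satProb_nonneg _ _ _, ?_⟩
  have hn1 : (1 : ℝ) ≤ n := by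
    have : (3 : ℝ) ≤ n := by exact_mod_cast hn
    linarith
  set M : ℕ := ⌈C0 * n⌉₊ with hM
  have hM1 : C0 * n ≤ M := Nat.le_ceil _
  have hM2 : (M : ℝ) ≤ C0 * n + 1 := (Nat.ceil_lt_add_one (by positivity)).le
  have h1 := htail M hM1
  have h2 : ∑' m : ℕ, satProb 3 n (m + M) ≤
      ∑' m : ℕ, (2 * ((m + M : ℕ) : ℝ) + 1) * satProb 3 n (m + M) := by
    refine Summable.tsum_le_tsum (fun m => ?_)
      ((summable_nat_add_iff (f := fun m : ℕ => satProb 3 n m) M).2 hs1)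
      ((summable_nat_add_iff (f := fun m : ℕ => (2 * (m : ℝ) + 1) * satProb 3 n m) M).2 hs2)
    have h3 := satProb_nonneg 3 n (m + M)
    have h4 : (0 : ℝ) ≤ ((m + M : ℕ) : ℝ) := Nat.cast_nonneg _
    nlinarith
  have h3 : ∑ m ∈ range M, satProb 3 n m ≤ M := by
    refine (Finset.sum_le_sum fun m _ => satProb_le_one_C hn m).trans_eq ?_
    simp
  have h4 := hs1.sum_add_tsum_nat_add M
  have h5 : C1 ≤ max C1 0 * n := by
    have a1 : 0 ≤ max C1 0 := le_max_right _ _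
    have a2 : C1 ≤ max C1 0 := le_max_left _ _
    nlinarith
  unfold mu
  rw [← h4]
  nlinarith

open Classical in
private theorem cheb_fin {n : ℕ} (hn : 3 ≤ n) (M ν : ℕ) (hν : ν < M)
    (hle : (ν : ℝ) ≤ ∑ m ∈ range M, satProb 3 n m) :
    ((∑ m ∈ range M, satProb 3 n m) - ν) ^ 2 * (1 - satProb 3 n ν) ≤
      ∑ m ∈ range M, (2 * (m : ℝ) + 1) * satProb 3 n m - (∑ m ∈ range M, satProb 3 n m) ^ 2 := by
  have hne := nonempty_clause hn
  set μ : ℝ := ∑ m ∈ range M, satProb 3 n m with hμ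
  have h1 : lavg (Clause 3 n) M (fun L => (((hit 0 L M : ℕ) : ℝ) - μ) ^ 2) =
      ∑ m ∈ range M, (2 * (m : ℝ) + 1) * satProb 3 n m - μ ^ 2 := by
    have h2 : ∀ L : List (Clause 3 n), (((hit 0 L M : ℕ) : ℝ) - μ) ^ 2 =
        ((hit 0 L M : ℕ) : ℝ) ^ 2 - (2 * μ) * ((hit 0 L M : ℕ) : ℝ) + μ ^ 2 := fun L => by ring
    rw [lavg_congr h2, lavg_add, lavg_sub, lavg_mul_left, lavg_const, lavg_hit hn, lavg_hit_sq hn,
      ← hμ]
    ring
  have h3 : lavg (Clause 3 n) M (fun L => (μ - ν) ^ 2 *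
      (1 - if Alive 0 ((L.take ν).map toGC) then (1 : ℝ) else 0)) =
      (μ - ν) ^ 2 * (1 - satProb 3 n ν) := by
    rw [lavg_mul_left, lavg_sub, lavg_const, ← satProb_eq_take hn hν.le]
  rw [← h1, ← h3]
  refine lavg_mono fun L => ?_
  by_cases hA : Alive 0 ((L.take ν).map toGC)
  · rw [if_pos hA, sub_self, mul_zero]
    positivity
  · rw [if_neg hA, sub_zero, mul_one]
    have hX : hit 0 L M ≤ ν := by
      unfold hit
      have hsub : (range M).filter (fun m => Alive 0 ((L.take m).map toGC)) ⊆ range ν := by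
        intro m hm
        rw [Finset.mem_filter] at hm
        rw [Finset.mem_range]
        by_contra hc
        push Not at hc
        exact hA (Alive.of_sublist ((List.take_sublist_take_left hc).map _) hm.2)
      refine (Finset.card_le_card hsub).trans_eq (Finset.card_range ν)
    have hX' : ((hit 0 L M : ℕ) : ℝ) ≤ ν := by exact_mod_cast hX
    nlinarith

/-- Chebyshev: with `X = hit 0 L M` (stream length `M > ν`): `lavg_hit`, `lavg_hit_sq`, `P(X ≤ ν) = 1 - satProb 3 n ν`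
(the counted times are an initial segment: `X ≤ ν` iff the first `ν` clauses are unsatisfiable, `ν < M`,
`satProb_eq_take`), so `(E X - ν)^2 (1 - satProb ν) ≤ E (X - E X)^2 = E X^2 - (E X)^2` if `ν ≤ E X`; let
`M → ∞` (`Summable.hasSum.tendsto_sum_nat`) and use `S0217.result 3`. -/
theorem cheb : ∃ C : ℝ, 0 ≤ C ∧ ∀ n : ℕ, 3 ≤ n → ∀ ν : ℕ, (ν : ℝ) ≤ mu 3 n →
    (mu 3 n - ν) ^ 2 * (1 - satProb 3 n ν) ≤ C * n := by
  obtain ⟨C, hC⟩ := Crest.Agent.S0217.result 3 le_rfl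
  refine ⟨max C 0, le_max_right _ _, fun n hn ν hν => ?_⟩
  obtain ⟨hs1, hs2, hvar⟩ := hC n hn
  have hn0 : (0 : ℝ) ≤ n := Nat.cast_nonneg n
  have hCn : C * n ≤ max C 0 * n := mul_le_mul_of_nonneg_right (le_max_left _ _) hn0
  rcases hν.lt_or_eq with hlt | heq
  · have t1 := hs1.hasSum.tendsto_sum_nat
    have t2 := hs2.hasSum.tendsto_sum_nat
    have e1 : ∀ᶠ M : ℕ in Filter.atTop, (ν : ℝ) < ∑ m ∈ range M, satProb 3 n m :=
      t1.eventually (lt_mem_nhds hlt)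
    have e2 : ∀ᶠ M : ℕ in Filter.atTop, ν < M := Filter.eventually_gt_atTop ν
    have t3 : Filter.Tendsto (fun M : ℕ => ((∑ m ∈ range M, satProb 3 n m) - ν) ^ 2 *
        (1 - satProb 3 n ν)) Filter.atTop (nhds ((mu 3 n - ν) ^ 2 * (1 - satProb 3 n ν))) :=
      ((t1.sub_const _).pow 2).mul_const _
    have t4 : Filter.Tendsto (fun M : ℕ => ∑ m ∈ range M, (2 * (m : ℝ) + 1) * satProb 3 n m -
        (∑ m ∈ range M, satProb 3 n m) ^ 2) Filter.atTop
        (nhds ((∑' m : ℕ, (2 * (m : ℝ) + 1) * satProb 3 n m) - (∑' m : ℕ, satProb 3 n m) ^ 2)) :=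
      t2.sub (t1.pow 2)
    have h5 := le_of_tendsto_of_tendsto t3 t4 (by
      filter_upwards [e1, e2] with M h1 h2
      exact cheb_fin hn M ν h2 h1.le)
    exact h5.trans (hvar.trans hCn)
  · rw [heq, sub_self]
    have : 0 ≤ max C 0 * (n : ℝ) := mul_nonneg (le_max_right _ _) hn0
    simpa using this

end Crest.Agent.RS
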