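import Mathlib
import Crest.Agent.RL.Defs

/-! Chunk R153L-KILL2: kill probabilities of global and local clauses. -/

set_option autoImplicit false

namespace Crest.Agent.RS

open Finset Crest.ProbabilityR.RandomSAT

/-- each block has at most `n` dead literals when the formula is alive (at most one per variable,
`deadSet_inj`) -/
theorem dB_le {n : ℕ} (b : Bool) {F : List (GC (n + n))} (h : Alive 0 F) : dB b F ≤ n := by
  unfold dB
  refine (Finset.card_le_card_of_injOn (t := Finset.range n)
    (fun y => if b then y.1.val - n else y.1.val) ?_ ?_).trans (by rw [Finset.card_range])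
  · intro y hy
    have hy' := (Finset.mem_filter.1 (Finset.mem_coe.1 hy)).2
    have hlt := y.1.isLt
    rw [Finset.mem_coe, Finset.mem_range]
    cases b
    · simp only [decide_eq_false_iff_not] at hy'
      simp only [Bool.false_eq_true, if_false]
      omega
    · simp only [decide_eq_true_eq] at hy'
      simp only [if_true]
      omega
  · intro y hy z hz hyz
    obtain ⟨hy1, hy2⟩ := Finset.mem_filter.1 (Finset.mem_coe.1 hy)
    obtain ⟨hz1, hz2⟩ := Finset.mem_filter.1 (Finset.mem_coe.1 hz)
    refine deadSet_inj h y hy1 z hz1 (Fin.ext ?_)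
    cases b
    · simpa using hyz
    · simp only [decide_eq_true_eq] at hy2 hz2
      simp only [if_true] at hyz
      omega

theorem dB_add {n : ℕ} (F : List (GC (n + n))) : dB false F + dB true F = (deadSet 0 F).card := by
  unfold dB
  have h := Finset.card_filter_add_card_filter_not (s := deadSet 0 F)
    (fun y : Lit (n + n) => n ≤ y.1.val)
  rw [← h, add_comm]
  congr 1
  · simp
  · simp

private theorem alive_cons_iff {n : ℕ} {F : List (GC n)} (h : Alive 0 F) (D : GC n) :
    Alive 0 (D :: F) ↔ ¬ ∀ y ∈ D, y ∈ deadSet 0 F := by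
  constructor
  · intro h1 h2
    exact kill_of ⟨h, fun σ => Nat.zero_le _⟩ (fun y hy => mem_deadSet.1 (h2 y hy)) h1
  · intro h1
    by_contra h2
    exact h1 fun y hy => mem_deadSet.2 ((kill_imp h h2).2 y hy)

open Classical in
/-- a global clause keeps the (alive) formula alive with probability
`1 - (K_1+K_2)_3 / ((2n)_3 8)`: at level `0` alive = critical; `kill_imp`, `kill_of` : the clause kills iff all
its literals are dead; `avg_all_mem` with `S = deadSet 0 F` (`deadSet_inj`). -/
theorem avg_glob {n : ℕ} (hn : 3 ≤ n) {F : List (GC (n + n))} (h : Alive 0 F) :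
    avg (fun c : Clause 3 (n + n) => if Alive 0 (toGC c :: F) then (1 : ℝ) else 0) =
      1 - ((dB false F + dB true F).descFactorial 3 : ℝ) / (((n + n).descFactorial 3 : ℝ) * 8) := by
  have hne : Nonempty (Clause 3 (n + n)) := nonempty_clause (by omega)
  have h1 : ∀ c : Clause 3 (n + n), (if Alive 0 (toGC c :: F) then (1 : ℝ) else 0) =
      1 - (if ∀ y ∈ toGC c, y ∈ deadSet 0 F then (1 : ℝ) else 0) := by
    intro c
    have h2 := alive_cons_iff h (toGC c)
    by_cases h3 : Alive 0 (toGC c :: F)
    · rw [if_pos h3, if_neg (h2.1 h3), sub_zero]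
    · rw [if_neg h3, if_pos (not_not.1 (fun h4 => h3 (h2.2 h4))), sub_self]
  rw [avg_congr h1, avg_sub, avg_const]
  have h2 := avg_all_mem (k := 3) (deadSet 0 F) (deadSet_inj h)
  rw [show ((2 : ℝ) ^ 3) = 8 by norm_num] at h2
  rw [dB_add, ← h2]

/-- shift of a literal to block `b` -/
private def sh {n : ℕ} (b : Bool) (y : Lit n) : Lit (n + n) :=
  (if b then Fin.natAdd n y.1 else Fin.castAdd n y.1, y.2)

private theorem sh_inj {n : ℕ} (b : Bool) : Function.Injective (sh (n := n) b) := by
  rintro ⟨x, u⟩ ⟨x', u'⟩ h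
  unfold sh at h
  cases b
  · simpa using h
  · simpa using h

open Classical in
private theorem card_SB {n : ℕ} (b : Bool) (F : List (GC (n + n))) :
    (Finset.univ.filter (fun y : Lit n => sh b y ∈ deadSet 0 F)).card = dB b F := by
  unfold dB
  rw [← Finset.card_image_of_injective _ (sh_inj (n := n) b)]
  congr 1
  ext z
  rw [Finset.mem_image, Finset.mem_filter]
  constructor
  · rintro ⟨y, hy, rfl⟩
    rw [Finset.mem_filter] at hy
    refine ⟨hy.2, ?_⟩
    unfold sh
    cases b
    · have := y.1.isLt
      simp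
    · simp
  · rintro ⟨hz1, hz2⟩
    have hlt := z.1.isLt
    cases b
    · simp only [decide_eq_false_iff_not, not_le] at hz2
      refine ⟨(⟨z.1.val, hz2⟩, z.2), ?_, ?_⟩
      · rw [Finset.mem_filter]
        refine ⟨Finset.mem_univ _, ?_⟩
        have e : sh false ((⟨z.1.val, hz2⟩, z.2) : Lit n) = z := by
          unfold sh
          refine Prod.ext (Fin.ext ?_) rfl
          simp
        rw [e]
        exact hz1
      · unfold sh
        refine Prod.ext (Fin.ext ?_) rfl
        simp
    · simp only [decide_eq_true_eq] at hz2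
      have e : sh true ((⟨z.1.val - n, by omega⟩, z.2) : Lit n) = z := by
        unfold sh
        refine Prod.ext (Fin.ext ?_) rfl
        simp
        omega
      refine ⟨(⟨z.1.val - n, by omega⟩, z.2), ?_, e⟩
      rw [Finset.mem_filter, e]
      exact ⟨Finset.mem_univ _, hz1⟩

open Classical in
/-- a local clause keeps the (alive) formula alive with probability
`1 - (1/2) Σ_b (K_b)_3 / ((n)_3 8)`: average over `Bool × Clause 3 n` (`avg_prod`); for block `b` apply
`avg_all_mem` on `n` variables with `S = {y : Lit n | (blk-shifted y) dead}` of cardinality `dB b F`. -/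
theorem avg_loc {n : ℕ} (hn : 3 ≤ n) {F : List (GC (n + n))} (h : Alive 0 F) :
    avg (fun bc : Bool × Clause 3 n => if Alive 0 (blk bc :: F) then (1 : ℝ) else 0) =
      1 - (1 / 2) * (((dB false F).descFactorial 3 : ℝ) + ((dB true F).descFactorial 3 : ℝ)) /
        ((n.descFactorial 3 : ℝ) * 8) := by
  have hne : Nonempty (Clause 3 n) := nonempty_clause hn
  have hb : ∀ b : Bool, avg (fun c : Clause 3 n =>
      if Alive 0 (blk (b, c) :: F) then (1 : ℝ) else 0) =
      1 - ((dB b F).descFactorial 3 : ℝ) / ((n.descFactorial 3 : ℝ) * 8) := by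
    intro b
    set S : Finset (Lit n) := Finset.univ.filter (fun y : Lit n => sh b y ∈ deadSet 0 F) with hS
    have hmem : ∀ y, y ∈ S ↔ sh b y ∈ deadSet 0 F := by
      intro y
      rw [hS, Finset.mem_filter]
      simp
    have h1 : ∀ c : Clause 3 n, (if Alive 0 (blk (b, c) :: F) then (1 : ℝ) else 0) =
        1 - (if ∀ y ∈ toGC c, y ∈ S then (1 : ℝ) else 0) := by
      intro c
      have h2 := alive_cons_iff h (blk (b, c))
      have h2' : (∀ y ∈ blk (b, c), y ∈ deadSet 0 F) ↔ ∀ y ∈ toGC c, y ∈ S := by
        unfold blk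
        rw [List.forall_mem_map]
        refine forall₂_congr fun y _ => ?_
        rw [hmem]
        rfl
      rw [h2'] at h2
      by_cases h3 : Alive 0 (blk (b, c) :: F)
      · rw [if_pos h3, if_neg (h2.1 h3), sub_zero]
      · rw [if_neg h3, if_pos (not_not.1 (fun h4 => h3 (h2.2 h4))), sub_self]
    rw [avg_congr h1, avg_sub, avg_const]
    have hSinj : ∀ y ∈ S, ∀ z ∈ S, y.1 = z.1 → y = z := by
      intro y hy z hz hyz
      refine sh_inj b (deadSet_inj h _ ((hmem y).1 hy) _ ((hmem z).1 hz) ?_)
      unfold sh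
      rw [hyz]
    have h2 := avg_all_mem (k := 3) S hSinj
    have h3 : S.card = dB b F := by rw [hS, card_SB]
    rw [h3, show ((2 : ℝ) ^ 3) = 8 by norm_num] at h2
    rw [← h2]
  rw [avg_prod, avg_congr hb]
  unfold avg
  rw [Fintype.sum_bool, Fintype.card_bool]
  push_cast
  ring

end Crest.Agent.RS
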