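import Mathlib

/-! Chunk R153L-NUM: numerical inequalities for falling factorials. -/

set_option autoImplicit false

namespace Crest.Agent.RS

open Finset

private theorem desc3_cast (K : ℕ) :
    (K.descFactorial 3 : ℝ) = K * (K - 1) * (K - 2) := by
  rcases Nat.lt_or_ge K 3 with h | h
  · interval_cases K <;> simp [Nat.descFactorial]
  · obtain ⟨j, rfl⟩ : ∃ j, K = j + 3 := ⟨K - 3, by omega⟩
    simp only [Nat.descFactorial_succ, Nat.descFactorial_zero]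
    have e1 : j + 3 - 0 = j + 3 := rfl
    have e2 : j + 3 - 1 = j + 2 := rfl
    have e3 : j + 3 - 2 = j + 1 := rfl
    rw [e1, e2, e3]
    push_cast
    ring

private theorem cast_cases (K : ℕ) : (K : ℝ) = 0 ∨ (1 : ℝ) ≤ K := by
  rcases Nat.eq_zero_or_pos K with h | h
  · left; simp [h]
  · right; exact_mod_cast h

/-- `(K)_3/(n)_3 ≥ x^3 - 3x^2/(n-2)` with `x = K/n`, `K ≤ n`, `n ≥ 3`.
(`K = 0, 1` trivial as `(K)_3 = 0`, `x^3 ≤ x^2/n`. For `K ≥ 2`: `p = (K-1)/(n-1)`, `q = (K-2)/(n-2)` satisfy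
`0 ≤ p, q ≤ x`, `x - p ≤ 1/(n-2)`, `x - q ≤ 2/(n-2)`, `x^2 - p q = x (x-q) + q (x-p) ≤ 3x/(n-2)`.) -/
theorem desc_ge {n K : ℕ} (hn : 3 ≤ n) (hK : K ≤ n) :
    ((K : ℝ) / n) ^ 3 - 3 / ((n : ℝ) - 2) * ((K : ℝ) / n) ^ 2 ≤
      (K.descFactorial 3 : ℝ) / (n.descFactorial 3 : ℝ) := by
  rw [desc3_cast, desc3_cast]
  have hn' : (3 : ℝ) ≤ n := by exact_mod_cast hn
  have hK' : (K : ℝ) ≤ n := by exact_mod_cast hK
  have hK0 : (0 : ℝ) ≤ K := Nat.cast_nonneg K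
  have h2 : (0 : ℝ) < (n : ℝ) - 2 := by linarith
  have h1 : (0 : ℝ) < (n : ℝ) - 1 := by linarith
  have h0 : (0 : ℝ) < n := by linarith
  have hc := cast_cases K
  set k : ℝ := (K : ℝ)
  set N : ℝ := (n : ℝ)
  have key : (k * k * k * ((N - 2) * (N - 1)) - 3 * (k * k * N) * (N - 1)) ≤
      k * (k - 1) * (k - 2) * (N * N) := by
    rcases hc with hk | hk
    · rw [hk]; simp
    · have e : k * (k - 1) * (k - 2) * (N * N) - (k * k * k * ((N - 2) * (N - 1)) -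
          3 * (k * k * N) * (N - 1)) = k * (2 * ((N - k) * (N + k)) + 3 * k * N * (k - 1)) := by
        ring
      have h3 : 0 ≤ k * (2 * ((N - k) * (N + k)) + 3 * k * N * (k - 1)) := by
        have a1 : 0 ≤ N - k := by linarith
        have a2 : 0 ≤ k - 1 := by linarith
        positivity
      linarith
  have e1 : (k / N) ^ 3 - 3 / (N - 2) * (k / N) ^ 2 =
      (k * k * k * ((N - 2) * (N - 1)) - 3 * (k * k * N) * (N - 1)) /
        (N * N * N * ((N - 1) * (N - 2))) := by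
    field_simp
  have e2 : k * (k - 1) * (k - 2) / (N * (N - 1) * (N - 2)) =
      (k * (k - 1) * (k - 2) * (N * N)) / (N * N * N * ((N - 1) * (N - 2))) := by
    field_simp
  rw [e1, e2]
  gcongr

/-- `(K)_3/(n)_3 ≤ (K/n)^3` for `K ≤ n`, `n ≥ 3`. -/
theorem desc_le {n K : ℕ} (hn : 3 ≤ n) (hK : K ≤ n) :
    (K.descFactorial 3 : ℝ) / (n.descFactorial 3 : ℝ) ≤ ((K : ℝ) / n) ^ 3 := by
  rw [desc3_cast, desc3_cast]
  have hn' : (3 : ℝ) ≤ n := by exact_mod_cast hn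
  have hK' : (K : ℝ) ≤ n := by exact_mod_cast hK
  have hK0 : (0 : ℝ) ≤ K := Nat.cast_nonneg K
  have h2 : (0 : ℝ) < (n : ℝ) - 2 := by linarith
  have h1 : (0 : ℝ) < (n : ℝ) - 1 := by linarith
  have h0 : (0 : ℝ) < n := by linarith
  have hc := cast_cases K
  set k : ℝ := (K : ℝ)
  set N : ℝ := (n : ℝ)
  have key : k * (k - 1) * (k - 2) * (N * N) ≤ k * k * k * ((N - 1) * (N - 2)) := by
    rcases hc with hk | hk
    · rw [hk]; simp
    · -- difference `k [ k²(N²-3N+2) - (k²-3k+2) N² ] = k (N-k)(3kN - 2(N+k))`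
      have e : k * k * k * ((N - 1) * (N - 2)) - k * (k - 1) * (k - 2) * (N * N) =
          k * ((N - k) * (2 * N * (k - 1) + k * (N - 2))) := by
        ring
      have h3 : 0 ≤ k * ((N - k) * (2 * N * (k - 1) + k * (N - 2))) := by
        have a1 : 0 ≤ N - k := by linarith
        have a2 : 0 ≤ k - 1 := by linarith
        have a3 : 0 ≤ N - 2 := by linarith
        positivity
      linarith
  have e2 : (k / N) ^ 3 = (k * k * k * ((N - 1) * (N - 2))) /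
      (N * N * N * ((N - 1) * (N - 2))) := by
    field_simp
  have e1 : k * (k - 1) * (k - 2) / (N * (N - 1) * (N - 2)) =
      (k * (k - 1) * (k - 2) * (N * N)) / (N * N * N * ((N - 1) * (N - 2))) := by
    field_simp
  rw [e1, e2]
  gcongr

/-- convexity defect: `(K1+K2)_3/(2n)_3 ≤ ((x1+x2)/2)^3 ≤ (x1^3+x2^3)/2` and `desc_ge`. -/
theorem desc_two {n K1 K2 : ℕ} (hn : 3 ≤ n) (h1 : K1 ≤ n) (h2 : K2 ≤ n) :
    ((K1 + K2).descFactorial 3 : ℝ) / ((n + n).descFactorial 3 : ℝ) ≤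
      (1 / 2) * ((K1.descFactorial 3 : ℝ) + (K2.descFactorial 3 : ℝ)) / (n.descFactorial 3 : ℝ) +
      3 / ((n : ℝ) - 2) * ((1 / 2) * (((K1 : ℝ) / n) ^ 2 + ((K2 : ℝ) / n) ^ 2)) := by
  have a := desc_le (n := n + n) (K := K1 + K2) (by omega) (by omega)
  have b1 := desc_ge hn h1
  have b2 := desc_ge hn h2
  have hn' : (3 : ℝ) ≤ n := by exact_mod_cast hn
  have h0 : (0 : ℝ) < n := by linarith
  have e : (((K1 + K2 : ℕ) : ℝ) / ((n + n : ℕ) : ℝ)) = ((K1 : ℝ) / n + (K2 : ℝ) / n) / 2 := by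
    push_cast
    field_simp
    ring
  rw [e] at a
  have x1 : 0 ≤ (K1 : ℝ) / n := by positivity
  have x2 : 0 ≤ (K2 : ℝ) / n := by positivity
  set x := (K1 : ℝ) / n
  set y := (K2 : ℝ) / n
  have cv : ((x + y) / 2) ^ 3 ≤ (x ^ 3 + y ^ 3) / 2 := by
    nlinarith [mul_nonneg (add_nonneg x1 x2) (sq_nonneg (x - y))]
  have e3 : (1 / 2) * ((K1.descFactorial 3 : ℝ) + (K2.descFactorial 3 : ℝ)) /
      (n.descFactorial 3 : ℝ) = (1 / 2) * ((K1.descFactorial 3 : ℝ) / (n.descFactorial 3 : ℝ) +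
        (K2.descFactorial 3 : ℝ) / (n.descFactorial 3 : ℝ)) := by ring
  rw [e3]
  linarith

/-- `x^2 ≤ 2δ^2 + (2/δ) (K)_3/(n)_3` if `δ (n-2) ≥ 6`: `x^2 ≤ δ^2 + x^3/δ`, `x^3 ≤ (K)_3/(n)_3 + 3x^2/(n-2)`. -/
theorem sq_le_desc {n K : ℕ} (hn : 3 ≤ n) (hK : K ≤ n) (δ : ℝ) (hδ : 0 < δ)
    (h6 : 6 ≤ δ * ((n : ℝ) - 2)) :
    ((K : ℝ) / n) ^ 2 ≤ 2 * δ ^ 2 + 2 / δ * ((K.descFactorial 3 : ℝ) / (n.descFactorial 3 : ℝ)) := by
  have b := desc_ge hn hK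
  have hn' : (3 : ℝ) ≤ n := by exact_mod_cast hn
  have h0 : (0 : ℝ) < n := by linarith
  have h2 : (0 : ℝ) < (n : ℝ) - 2 := by linarith
  have x1 : 0 ≤ (K : ℝ) / n := by positivity
  set x := (K : ℝ) / n
  set D := (K.descFactorial 3 : ℝ) / (n.descFactorial 3 : ℝ)
  -- `x^2 ≤ δ^2 + x^3/δ`
  have c1 : δ * x ^ 2 ≤ δ ^ 3 + x ^ 3 := by
    rcases le_total x δ with h | h
    · have : x ^ 2 ≤ δ ^ 2 := pow_le_pow_left₀ x1 h 2
      nlinarith [pow_nonneg x1 3]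
    · have : 0 ≤ x ^ 2 * (x - δ) := mul_nonneg (sq_nonneg x) (by linarith)
      nlinarith [pow_pos hδ 3]
  -- `3/(n-2) ≤ δ/2`
  have c2 : 3 / ((n : ℝ) - 2) ≤ δ / 2 := by
    rw [div_le_iff₀ h2]
    linarith
  have c3 : 3 / ((n : ℝ) - 2) * x ^ 2 ≤ δ / 2 * x ^ 2 :=
    mul_le_mul_of_nonneg_right c2 (sq_nonneg x)
  have c4 : δ * x ^ 2 ≤ 2 * δ ^ 3 + 2 * D := by linarith
  have c5 : δ * x ^ 2 ≤ δ * (2 * δ ^ 2 + 2 / δ * D) := by
    have : δ * (2 * δ ^ 2 + 2 / δ * D) = 2 * δ ^ 3 + 2 * D := by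
      field_simp
    linarith
  exact le_of_mul_le_mul_left c5 hδ

end Crest.Agent.RS
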