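import Mathlib
import Crest.Agent.RL.Defs
import Crest.Agent.RL.Kill2
import Crest.Agent.RL.Num

/-! Chunk R153L-INTER: one interpolation step and the hazard sum. -/

set_option autoImplicit false

namespace Crest.Agent.RS

open Finset Crest.ProbabilityR.RandomSAT

/-- mean over `r` global and `s` local clauses -/
private noncomputable def EE (n r s : ℕ) (f : List (GC (n + n)) → ℝ) : ℝ :=
  lavg (Clause 3 (n + n)) r (fun G => lavg (Bool × Clause 3 n) s (fun L =>
    f (G.map toGC ++ L.map blk)))

private theorem EE_mono {n r s : ℕ} {f g : List (GC (n + n)) → ℝ} (h : ∀ F, f F ≤ g F) :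
    EE n r s f ≤ EE n r s g :=
  lavg_mono fun _ => lavg_mono fun _ => h _

private theorem EE_congr {n r s : ℕ} {f g : List (GC (n + n)) → ℝ} (h : ∀ F, f F = g F) :
    EE n r s f = EE n r s g := by rw [funext h]

private theorem EE_add {n r s : ℕ} (f g : List (GC (n + n)) → ℝ) :
    EE n r s (fun F => f F + g F) = EE n r s f + EE n r s g := by
  unfold EE
  rw [← lavg_add]
  exact lavg_congr fun G => lavg_add _ _ _

private theorem EE_sub {n r s : ℕ} (f g : List (GC (n + n)) → ℝ) :
    EE n r s (fun F => f F - g F) = EE n r s f - EE n r s g := by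
  unfold EE
  rw [← lavg_sub]
  exact lavg_congr fun G => lavg_sub _ _ _

private theorem EE_mul {n r s : ℕ} (c : ℝ) (f : List (GC (n + n)) → ℝ) :
    EE n r s (fun F => c * f F) = c * EE n r s f := by
  unfold EE
  rw [← lavg_mul_left]
  exact lavg_congr fun G => lavg_mul_left _ _ _

private theorem EE_glob {n r s : ℕ} (f : List (GC (n + n)) → ℝ) :
    EE n (r + 1) s f = EE n r s (fun F => avg (fun c : Clause 3 (n + n) => f (toGC c :: F))) := by
  unfold EE
  rw [lavg_succ, ← lavg_avg_comm]
  refine lavg_congr fun G => ?_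
  rw [lavg_avg_comm]
  rfl

private theorem EE_loc {n r s : ℕ} (f : List (GC (n + n)) → ℝ)
    (hf : ∀ F G : List (GC (n + n)), F.Perm G → f F = f G) :
    EE n r (s + 1) f = EE n r s (fun F => avg (fun bc : Bool × Clause 3 n => f (blk bc :: F))) := by
  unfold EE
  refine lavg_congr fun G => ?_
  rw [lavg_succ, lavg_avg_comm]
  refine avg_congr fun bc => lavg_congr fun L => ?_
  refine hf _ _ ?_
  rw [List.map_cons]
  exact List.perm_middle

open Classical in
/-- probability of being alive -/
private noncomputable def al {n : ℕ} (F : List (GC (n + n))) : ℝ := if Alive 0 F then 1 else 0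

private theorem al_perm {n : ℕ} (F G : List (GC (n + n))) (h : F.Perm G) : al F = al G := by
  classical
  unfold al
  exact if_congr (alive_perm h) rfl rfl

private theorem sP_eq (n r s : ℕ) : sP n r s = EE n r s al := rfl

private theorem al_cons {n : ℕ} (D : GC (n + n)) (F : List (GC (n + n))) (h : ¬ Alive 0 F) :
    al (D :: F) = 0 := by
  classical
  unfold al
  exact if_neg fun h2 => h (h2.of_sublist (List.sublist_cons_self _ _))

open Classical in
private theorem Wq_eq (n r s : ℕ) : Wq n r s = EE n r s (fun F => al F * Qb F) := by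
  unfold Wq EE al
  refine lavg_congr fun G => lavg_congr fun L => ?_
  by_cases h : Alive 0 (List.map toGC G ++ List.map blk L)
  · simp only [if_pos h, one_mul]
  · simp only [if_neg h, zero_mul]

/-- the local hazard -/
private noncomputable def hz {n : ℕ} (F : List (GC (n + n))) : ℝ :=
  (1 / 2) * (((dB false F).descFactorial 3 : ℝ) + ((dB true F).descFactorial 3 : ℝ)) /
        ((n.descFactorial 3 : ℝ) * 8)

private theorem sP_loc {n : ℕ} (hn : 3 ≤ n) (r s : ℕ) :
    sP n r (s + 1) = EE n r s (fun F => al F - al F * hz F) := by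
  classical
  rw [sP_eq, EE_loc _ al_perm]
  refine EE_congr fun F => ?_
  by_cases h : Alive 0 F
  · have h1 := avg_loc hn h
    have h2 : al F = 1 := if_pos h
    rw [h2, one_mul]
    exact h1
  · have h2 : al F = 0 := if_neg h
    rw [avg_congr (fun bc => al_cons (blk bc) F h), avg_zero, h2]
    simp

private theorem sP_glob {n : ℕ} (hn : 3 ≤ n) (r s : ℕ) :
    sP n (r + 1) s = EE n r s (fun F => al F - al F *
      (((dB false F + dB true F).descFactorial 3 : ℝ) / (((n + n).descFactorial 3 : ℝ) * 8))) := by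
  classical
  rw [sP_eq, EE_glob]
  refine EE_congr fun F => ?_
  by_cases h : Alive 0 F
  · have h1 := avg_glob hn h
    have h2 : al F = 1 := if_pos h
    rw [h2, one_mul]
    exact h1
  · have h2 : al F = 0 := if_neg h
    rw [avg_congr (fun c => al_cons (toGC c) F h), avg_zero, h2]
    simp

/-- all clauses global (`satProb_eq`) -/
theorem sP_zero_right (n m : ℕ) : sP n m 0 = satProb 3 (n + n) m := by
  classical
  rw [satProb_eq]
  unfold sP
  refine lavg_congr fun G => ?_
  rw [lavg_zero, List.map_nil, List.append_nil]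

/-- replacing a local clause by a global one. `sP n (r+1) s = E_G E_L avg_c 1(Alive (toGC c :: F))` with
`F = G ++ L` (`r`, `s` clauses; permutation invariance `alive_perm`, `lavg_succ`, `lavg_avg_comm`,
`Alive` of the larger formula implies `Alive F`) and `avg_glob`; similarly `sP n r (s+1)` with `avg_loc`; then
`desc_two`, `dB_le`. -/
theorem sP_step {n : ℕ} (hn : 3 ≤ n) (r s : ℕ) :
    sP n r (s + 1) - 3 / (8 * ((n : ℝ) - 2)) * Wq n r s ≤ sP n (r + 1) s := by
  classical
  rw [sP_loc hn, sP_glob hn, Wq_eq, ← EE_mul, ← EE_sub]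
  refine EE_mono fun F => ?_
  by_cases h : Alive 0 F
  · have h2 : al F = 1 := if_pos h
    rw [h2, one_mul, one_mul, one_mul]
    have h3 := desc_two hn (dB_le false h) (dB_le true h)
    have hn2 : (0 : ℝ) < (n : ℝ) - 2 := by
      have : (3 : ℝ) ≤ n := by exact_mod_cast hn
      linarith
    have e1 : ((dB false F + dB true F).descFactorial 3 : ℝ) / (((n + n).descFactorial 3 : ℝ) * 8) =
        (1 / 8) * (((dB false F + dB true F).descFactorial 3 : ℝ) /
          ((n + n).descFactorial 3 : ℝ)) := by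
      rw [mul_comm, ← div_div]; ring
    have e2 : hz F = (1 / 8) * ((1 / 2) * (((dB false F).descFactorial 3 : ℝ) +
        ((dB true F).descFactorial 3 : ℝ)) / (n.descFactorial 3 : ℝ)) := by
      unfold hz
      rw [mul_comm ((n.descFactorial 3 : ℝ)) 8, ← div_div]; ring
    have e3 : 3 / (8 * ((n : ℝ) - 2)) * Qb F = (1 / 8) * (3 / ((n : ℝ) - 2) *
        ((1 / 2) * (((dB false F : ℝ) / n) ^ 2 + ((dB true F : ℝ) / n) ^ 2))) := by
      unfold Qb
      field_simp
    rw [e1, e2, e3]
    linarith
  · have h2 : al F = 0 := if_neg h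
    rw [h2]
    simp

/-- hazard: `sP n r s - sP n r (s+1) = E[1(alive) (1/2) Σ_b (K_b)_3/((n)_3 8)]`, telescoping sum `≤ 1`, and
`Qb ≤ 2δ^2 + (2/δ) (1/2) Σ_b (K_b)_3/(n)_3` (`sq_le_desc`). -/
theorem sum_Wq_le {n : ℕ} (hn : 3 ≤ n) (r S : ℕ) (δ : ℝ) (hδ : 0 < δ) (h6 : 6 ≤ δ * ((n : ℝ) - 2)) :
    ∑ s ∈ range S, Wq n r s ≤ 2 * δ ^ 2 * S + 16 / δ := by
  classical
  obtain ⟨d⟩ := nonempty_clause (k := 3) (n := n) hn
  have hne1 : Nonempty (Bool × Clause 3 n) := ⟨(true, d)⟩
  have hne2 : Nonempty (Clause 3 (n + n)) := nonempty_clause (by omega)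
  have hnn : ∀ s, 0 ≤ sP n r s := fun s => lavg_nonneg fun _ => lavg_nonneg fun _ => by
    split_ifs <;> norm_num
  have hle : ∀ s, sP n r s ≤ 1 := fun s => lavg_le_const fun _ _ => lavg_le_const fun _ _ => by
    split_ifs <;> norm_num
  have hstep : ∀ s, Wq n r s ≤ 2 * δ ^ 2 + 16 / δ * (sP n r s - sP n r (s + 1)) := by
    intro s
    have h1 : sP n r s - sP n r (s + 1) = EE n r s (fun F => al F * hz F) := by
      rw [sP_loc hn, sP_eq, ← EE_sub]
      exact EE_congr fun F => by ring
    have h2 : 2 * δ ^ 2 * sP n r s ≤ 2 * δ ^ 2 := by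
      have := hle s
      nlinarith [sq_nonneg δ]
    refine le_trans ?_ (add_le_add_left h2 _)
    rw [h1, Wq_eq, sP_eq, ← EE_mul, ← EE_mul, ← EE_add]
    refine EE_mono fun F => ?_
    by_cases h : Alive 0 F
    · have h2 : al F = 1 := if_pos h
      rw [h2, one_mul, one_mul, mul_one]
      have h3 := sq_le_desc hn (dB_le false h) δ hδ h6
      have h4 := sq_le_desc hn (dB_le true h) δ hδ h6
      have e2 : 16 / δ * hz F = (1 / 2) * (2 / δ * (((dB false F).descFactorial 3 : ℝ) /
          (n.descFactorial 3 : ℝ)) + 2 / δ * (((dB true F).descFactorial 3 : ℝ) /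
          (n.descFactorial 3 : ℝ))) := by
        unfold hz
        rw [mul_comm ((n.descFactorial 3 : ℝ)) 8, ← div_div]; ring
      rw [e2]
      unfold Qb
      linarith
    · have h2 : al F = 0 := if_neg h
      rw [h2]
      simp
  calc ∑ s ∈ range S, Wq n r s
      ≤ ∑ s ∈ range S, (2 * δ ^ 2 + 16 / δ * (sP n r s - sP n r (s + 1))) :=
        Finset.sum_le_sum fun s _ => hstep s
    _ = 2 * δ ^ 2 * S + 16 / δ * (sP n r 0 - sP n r S) := by
        rw [Finset.sum_add_distrib, ← Finset.mul_sum (s := range S) (a := 16 / δ),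
          Finset.sum_range_sub', Finset.sum_const, Finset.card_range, nsmul_eq_mul,
          mul_comm (S : ℝ)]
    _ ≤ 2 * δ ^ 2 * S + 16 / δ * 1 := by
        gcongr
        linarith [hle 0, hnn S]
    _ = _ := by ring

end Crest.Agent.RS
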