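import Mathlib
import Crest.Agent.RL.Defs
import Crest.Agent.RL.Inter

/-! Chunk R153L-SUM: summing the interpolation. -/

set_option autoImplicit false

namespace Crest.Agent.RS

open Finset Crest.ProbabilityR.RandomSAT

private theorem sum_exchange (f : ℕ → ℕ → ℝ) (M : ℕ) :
    ∑ m ∈ range M, ∑ r ∈ range m, f r (m - 1 - r) =
      ∑ r ∈ range M, ∑ s ∈ range (M - 1 - r), f r s := by
  induction M with
  | zero => simp
  | succ M ih =>
    rw [Finset.sum_range_succ, ih, Finset.sum_range_succ (n := M)]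
    have h1 : M + 1 - 1 - M = 0 := by omega
    rw [h1, Finset.range_zero, Finset.sum_empty, add_zero, ← Finset.sum_add_distrib]
    refine Finset.sum_congr rfl fun r hr => ?_
    rw [Finset.mem_range] at hr
    have h2 : M + 1 - 1 - r = (M - 1 - r) + 1 := by omega
    rw [h2, Finset.sum_range_succ]

/-- `satProb 3 (2n) m = sP n m 0 ≥ sP n 0 m - 3/(8(n-2)) Σ_{r<m} Wq n r (m-r-1)` (`sP_step` iterated),
sum over `m < M`, exchange: for every `r < M` the indices `s = m-r-1 < M` are distinct, `Wq ≥ 0`,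
`sum_Wq_le`. -/
theorem sum_satProb_ge {n : ℕ} (hn : 3 ≤ n) (M : ℕ) (δ : ℝ) (hδ : 0 < δ)
    (h6 : 6 ≤ δ * ((n : ℝ) - 2)) :
    ∑ m ∈ range M, sP n 0 m - 3 / (8 * ((n : ℝ) - 2)) * M * (2 * δ ^ 2 * M + 16 / δ) ≤
      ∑ m ∈ range M, satProb 3 (n + n) m := by
  have hn' : (3 : ℝ) ≤ n := by exact_mod_cast hn
  have hn2 : (0 : ℝ) < (n : ℝ) - 2 := by linarith
  set c : ℝ := 3 / (8 * ((n : ℝ) - 2)) with hc
  have hc0 : 0 ≤ c := by rw [hc]; positivity
  have hiter : ∀ m r : ℕ, r ≤ m →
      sP n 0 m - c * ∑ r' ∈ range r, Wq n r' (m - 1 - r') ≤ sP n r (m - r) := by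
    intro m r
    induction r with
    | zero => simp
    | succ r ih =>
      intro hr
      have h1 := ih (by omega)
      have h2 := sP_step hn r (m - 1 - r)
      have h3 : m - 1 - r + 1 = m - r := by omega
      have h4 : m - 1 - r = m - (r + 1) := by omega
      rw [h3] at h2
      rw [Finset.sum_range_succ, mul_add]
      rw [← hc] at h2
      rw [← h4]
      linarith
  have hm : ∀ m, sP n 0 m - c * ∑ r ∈ range m, Wq n r (m - 1 - r) ≤ satProb 3 (n + n) m := by
    intro m
    have h1 := hiter m m le_rfl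
    rwa [Nat.sub_self, sP_zero_right] at h1
  have hsum := Finset.sum_le_sum (s := range M) fun m _ => hm m
  rw [Finset.sum_sub_distrib, ← Finset.mul_sum, sum_exchange] at hsum
  have hW : ∑ r ∈ range M, ∑ s ∈ range (M - 1 - r), Wq n r s ≤
      M * (2 * δ ^ 2 * M + 16 / δ) := by
    have h1 : ∀ r ∈ range M, ∑ s ∈ range (M - 1 - r), Wq n r s ≤ 2 * δ ^ 2 * M + 16 / δ := by
      intro r _
      refine (sum_Wq_le hn r (M - 1 - r) δ hδ h6).trans ?_
      have : ((M - 1 - r : ℕ) : ℝ) ≤ M := by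
        have : M - 1 - r ≤ M := by omega
        exact_mod_cast this
      gcongr
    refine (Finset.sum_le_sum h1).trans_eq ?_
    rw [Finset.sum_const, Finset.card_range, nsmul_eq_mul]
  have h5 := mul_le_mul_of_nonneg_left hW hc0
  have h6 : c * M * (2 * δ ^ 2 * M + 16 / δ) = c * (M * (2 * δ ^ 2 * M + 16 / δ)) := by ring
  rw [h6]
  linarith

end Crest.Agent.RS
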