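import Mathlib
import Crest.Agent.RL.Defs
import Crest.Agent.RL.Sum
import Crest.Agent.RL.Blocks
import Crest.Agent.RL.Cheb
import Crest.Agent.RL.BinSum

/-! Chunk R153L-DOUBLE: `E H_{2n} ≥ 2 E H_n - C √n`. -/

set_option autoImplicit false

namespace Crest.Agent.RS

open Finset Crest.ProbabilityR.RandomSAT

theorem dbl_satProb_le_one {n : ℕ} (hn : 3 ≤ n) (m : ℕ) : satProb 3 n m ≤ 1 := by
  classical
  have := nonempty_clause hn
  rw [satProb_eq]
  exact lavg_le_const fun L => by split_ifs <;> norm_num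

theorem dbl_summable {n : ℕ} (hn : 3 ≤ n) : Summable (fun m => satProb 3 n m) := by
  have hg : Summable (fun m : ℕ => (2 : ℝ) ^ n * (1 - 1 / 2 ^ 3) ^ m) :=
    (summable_geometric_of_lt_one (by norm_num) (by norm_num)).mul_left _
  exact Summable.of_nonneg_of_le (fun m => satProb_nonneg 3 n m) (fun m => satProb_le hn m) hg

theorem dbl_partial {n : ℕ} (hn : 3 ≤ n) (M : ℕ) :
    ∑ m ∈ range M, satProb 3 n m ≤ mu 3 n :=
  (dbl_summable hn).sum_le_tsum _ fun m _ => satProb_nonneg 3 n m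

/-- For `n ≥ 16` take `δ = n^(-1/4)` (`δ (n-2) ≥ 6`), `M = ⌊2 mu 3 n⌋₊ ≤ 2 C n`:
`mu 3 (2n) ≥ Σ_{m<M} satProb 3 (2n) m ≥ Σ_{m<M} sP n 0 m - C'(δ^2 n + 1/δ) ≥ 2 mu 3 n - C''√n`
(`sum_satProb_ge`, `sP_zero_left`, `bin_sum` with `p = satProb 3 n`, `A = max 1 (C n)`). For `n < 16` use `mu_le`. -/
theorem mu_double : ∃ C : ℝ, 0 ≤ C ∧ ∀ n : ℕ, 3 ≤ n →
    2 * mu 3 n - C * Real.sqrt n ≤ mu 3 (n + n) := by
  obtain ⟨C1, hC1, h1⟩ := mu_le
  obtain ⟨C2, hC2, h2⟩ := cheb
  set B : ℝ := C1 + C2 + 1 with hB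
  have hB1 : 1 ≤ B := by linarith
  refine ⟨100 * Real.sqrt B + (9 * C1 ^ 2 + 36 * C1) + 32 * C1, by positivity, fun n hn => ?_⟩
  obtain ⟨hμ0, hμ1⟩ := h1 n hn
  have hn3 : (3 : ℝ) ≤ n := by exact_mod_cast hn
  have hs1 : 1 ≤ Real.sqrt n := by
    rw [show (1 : ℝ) = Real.sqrt 1 by simp]
    exact Real.sqrt_le_sqrt (by linarith)
  have hsB : 0 ≤ Real.sqrt B := Real.sqrt_nonneg _
  by_cases h16 : n < 16
  · have h3 := (h1 (n + n) (by omega)).1
    have h4 : (n : ℝ) ≤ 16 := by exact_mod_cast h16.le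
    have h5 : mu 3 n ≤ C1 * 16 := hμ1.trans (mul_le_mul_of_nonneg_left h4 hC1)
    have h6 : 32 * C1 * 1 ≤ 32 * C1 * Real.sqrt n :=
      mul_le_mul_of_nonneg_left hs1 (by positivity)
    have h7 : 0 ≤ (100 * Real.sqrt B + (9 * C1 ^ 2 + 36 * C1)) * Real.sqrt n := by positivity
    nlinarith
  · push Not at h16
    have hn16 : (16 : ℝ) ≤ n := by exact_mod_cast h16
    set s : ℝ := Real.sqrt n with hs
    set t : ℝ := Real.sqrt s with ht
    have hs2 : s ^ 2 = n := Real.sq_sqrt (by linarith)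
    have ht2 : t ^ 2 = s := Real.sq_sqrt (by linarith)
    have hs4 : 4 ≤ s := by
      rw [hs, show (4 : ℝ) = Real.sqrt (4 ^ 2) by rw [Real.sqrt_sq (by norm_num)]]
      exact Real.sqrt_le_sqrt (by linarith)
    have ht2' : 2 ≤ t := by
      rw [ht, show (2 : ℝ) = Real.sqrt (2 ^ 2) by rw [Real.sqrt_sq (by norm_num)]]
      exact Real.sqrt_le_sqrt (by linarith)
    have ht0 : 0 < t := by linarith
    have hts : t ≤ s := by nlinarith
    set M : ℕ := ⌊2 * mu 3 n⌋₊ with hM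
    have hM2 : (M : ℝ) ≤ 2 * mu 3 n := Nat.floor_le (by positivity)
    have hM3 : (M : ℝ) ≤ 2 * C1 * n := by linarith
    have h6 : 6 ≤ 1 / t * ((n : ℝ) - 2) := by
      rw [one_div, inv_mul_eq_div, le_div_iff₀ ht0, ← hs2, ← ht2]
      have : 6 * t + 2 ≤ t ^ 4 := by nlinarith [sq_nonneg (t - 2), sq_nonneg (t ^ 2 - 4)]
      nlinarith
    have hsum := sum_satProb_ge hn M (1 / t) (by positivity) h6
    have hpart := dbl_partial (n := n + n) (by omega) M
    -- the error term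
    have herr : 3 / (8 * ((n : ℝ) - 2)) * M * (2 * (1 / t) ^ 2 * M + 16 / (1 / t)) ≤
        (9 * C1 ^ 2 + 36 * C1) * s := by
      have hn2 : 0 < (n : ℝ) - 2 := by linarith
      have e1 : 3 / (8 * ((n : ℝ) - 2)) * M ≤ 9 / 4 * C1 := by
        have : 3 / (8 * ((n : ℝ) - 2)) * M = 3 * M / (8 * ((n : ℝ) - 2)) := by ring
        rw [this, div_le_iff₀ (by positivity)]
        nlinarith [mul_nonneg hC1 (by linarith : (0 : ℝ) ≤ n - 3)]
      have e2 : 2 * (1 / t) ^ 2 * M + 16 / (1 / t) ≤ (4 * C1 + 16) * s := by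
        have e3 : (1 / t) ^ 2 = 1 / s := by rw [div_pow, one_pow, ht2]
        have e4 : 16 / (1 / t) = 16 * t := by field_simp
        have hs0 : 0 < s := by linarith
        rw [e3, e4]
        have e5 : 2 * (1 / s) * M ≤ 4 * C1 * s := by
          have : 2 * (1 / s) * M = 2 * M / s := by ring
          rw [this, div_le_iff₀ hs0]
          nlinarith
        linarith
      have hM0 : (0 : ℝ) ≤ M := Nat.cast_nonneg M
      calc 3 / (8 * ((n : ℝ) - 2)) * M * (2 * (1 / t) ^ 2 * M + 16 / (1 / t))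
          ≤ (9 / 4 * C1) * ((4 * C1 + 16) * s) :=
            mul_le_mul e1 e2 (by positivity) (by positivity)
        _ = (9 * C1 ^ 2 + 36 * C1) * s := by ring
    -- the main term
    have hmain : 2 * mu 3 n - 100 * Real.sqrt (B * n) ≤ ∑ m ∈ range M, sP n 0 m := by
      refine (bin_sum (p := satProb 3 n) (fun ν => satProb_nonneg 3 n ν)
        (fun ν => dbl_satProb_le_one hn ν) hμ0 (A := B * n) ?_ ?_ ?_).trans ?_
      · nlinarith
      · refine hμ1.trans ?_
        nlinarith [mul_nonneg hC2 (by linarith : (0 : ℝ) ≤ n)]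
      · intro ν hν
        refine (h2 n hn ν hν).trans ?_
        nlinarith [mul_nonneg hC1 (by linarith : (0 : ℝ) ≤ n)]
      · exact Finset.sum_le_sum fun m _ => sP_zero_left hn m
    have hsqrt : Real.sqrt (B * n) = Real.sqrt B * s := Real.sqrt_mul (by linarith) _
    rw [hsqrt] at hmain
    have hlast : 0 ≤ 32 * C1 * s := by positivity
    nlinarith

end Crest.Agent.RS
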