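import Mathlib
import Crest.Agent.RL.Defs
import Crest.Agent.RS.Tail
import Crest.Agent.RL.Cheb

/-! Chunk R153L-LIM: the threshold is the limit of `E H_n / n`. -/

set_option autoImplicit false

namespace Crest.Agent.RS

open Finset Crest.ProbabilityR.RandomSAT

/-- `satProb k n ·` is nonincreasing for `k ≤ n` (`satProb_eq_take`). -/
theorem satProb_anti {k n : ℕ} (h : k ≤ n) {m m' : ℕ} (hm : m ≤ m') :
    satProb k n m' ≤ satProb k n m := by
  classical
  rw [satProb_eq_take h hm, satProb_eq_take h (le_refl m')]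
  refine lavg_mono fun L => ?_
  have h1 : Alive 0 ((L.take m').map (toGC (n := n))) → Alive 0 ((L.take m).map (toGC (n := n))) :=
    fun H => Alive.of_sublist ((List.take_sublist_take_left hm).map _) H
  split_ifs with h2 h3 h3
  · exact le_rfl
  · exact absurd (h1 h2) h3
  · norm_num
  · exact le_rfl

theorem satProb_le_one (k n m : ℕ) : satProb k n m ≤ 1 := by
  classical
  rw [satProb_eq]
  rcases isEmpty_or_nonempty (Clause k n) with hE | hN
  · cases m with
    | zero =>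
      rw [lavg_zero]
      split_ifs <;> norm_num
    | succ m =>
      rw [lavg_succ]
      simp [avg]
  · refine lavg_le_const fun L _ => ?_
    split_ifs <;> norm_num

private theorem lim_satProb_zero (k n : ℕ) : satProb k n 0 = 1 := by
  classical
  rw [satProb_eq, lavg_zero, if_pos]
  exact ⟨fun _ => true, by simp⟩

/-- a sharp threshold is nonnegative (`satProb 3 n 0 = 1` does not tend to `0`) -/
theorem threshold_nonneg {α : ℝ} (hα : IsSharpThreshold (satProb 3) α) : 0 ≤ α := by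
  by_contra hlt
  push Not at hlt
  have h := (hα 0 le_rfl).2 hlt
  simp only [zero_mul, Nat.floor_zero, lim_satProb_zero] at h
  have := tendsto_nhds_unique h tendsto_const_nhds
  norm_num at this

private theorem lim_alg {a C0 C1 x N : ℝ} (hN : 0 < N) :
    (a + (a + C0 + 1 / N) * x + C1 * (1 / N)) * N = a * N + ((a + C0) * N + 1) * x + C1 := by
  field_simp

private theorem lim_upper {p : ℕ → ℝ} (hnn : ∀ m, 0 ≤ p m) (h1 : ∀ m, p m ≤ 1)
    (hanti : ∀ m m', m ≤ m' → p m' ≤ p m) (hS : Summable p)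
    (hS2 : Summable (fun m : ℕ => (2 * (m : ℝ) + 1) * p m)) {a C0 C1 N : ℝ}
    (hT : ∀ M : ℕ, C0 * N ≤ M → ∑' m : ℕ, (2 * ((m + M : ℕ) : ℝ) + 1) * p (m + M) ≤ C1)
    (ha : 0 ≤ a) (hC0 : 0 ≤ C0) (hN : 0 < N) :
    ∑' m : ℕ, p m ≤ a * N + ((a + C0) * N + 1) * p ⌊a * N⌋₊ + C1 := by
  have haN : 0 ≤ a * N := mul_nonneg ha hN.le
  have hCN : 0 ≤ C0 * N := mul_nonneg hC0 hN.le
  have hKle : ((⌊a * N⌋₊ : ℕ) : ℝ) ≤ a * N := Nat.floor_le haN
  have hLge : C0 * N ≤ ((⌈C0 * N⌉₊ : ℕ) : ℝ) := Nat.le_ceil _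
  have hLle : ((⌈C0 * N⌉₊ : ℕ) : ℝ) ≤ C0 * N + 1 := (Nat.ceil_lt_add_one hCN).le
  generalize ⌊a * N⌋₊ = K at *
  generalize ⌈C0 * N⌉₊ = L at *
  have hK0 : (0 : ℝ) ≤ K := Nat.cast_nonneg K
  have e1 : ∑' m : ℕ, p m = ∑ m ∈ range (K + L), p m + ∑' m : ℕ, p (m + (K + L)) :=
    (hS.sum_add_tsum_nat_add (K + L)).symm
  have h2 : ∑' m : ℕ, p (m + (K + L)) ≤ C1 := by
    refine le_trans ?_ (hT (K + L) (by push_cast; linarith))
    refine Summable.tsum_le_tsum (fun m => ?_) ((summable_nat_add_iff (K + L)).2 hS)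
      ((summable_nat_add_iff (K + L)).2 hS2)
    have h0 : (0 : ℝ) ≤ ((m + (K + L) : ℕ) : ℝ) := Nat.cast_nonneg _
    have := hnn (m + (K + L))
    nlinarith
  have h4 : ∑ m ∈ range K, p m ≤ K := by
    have := Finset.sum_le_card_nsmul (range K) p 1 (fun m _ => h1 m)
    simpa using this
  have h5 : ∑ x ∈ range L, p (K + x) ≤ (L : ℝ) * p K := by
    have := Finset.sum_le_card_nsmul (range L) (fun x => p (K + x)) (p K)
      (fun x _ => hanti _ _ (Nat.le_add_right K x))
    rwa [Finset.card_range, nsmul_eq_mul] at this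
  have h3 : ∑ m ∈ range (K + L), p m ≤ K + L * p K := by
    rw [Finset.sum_range_add]
    linarith
  have h7 : (L : ℝ) * p K ≤ ((a + C0) * N + 1) * p K :=
    mul_le_mul_of_nonneg_right (by nlinarith) (hnn K)
  rw [e1]
  linarith

/-- Lower bound: for `0 ≤ a < α`: `mu 3 N ≥ Σ_{m ≤ ⌊aN⌋} satProb ≥ a N satProb 3 N ⌊aN⌋`. Upper bound: for
`a > α`: `mu 3 N ≤ (aN + 1) + (C0 N + 1) satProb 3 N ⌊aN⌋ + C1` (monotonicity, `tail` with `M = ⌈C0 N⌉`). -/
theorem mu_tendsto {α : ℝ} (hα : IsSharpThreshold (satProb 3) α) :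
    Filter.Tendsto (fun N : ℕ => mu 3 N / N) Filter.atTop (nhds α) := by
  have hα0 := threshold_nonneg hα
  obtain ⟨C0, C1, hC0, htail⟩ := tail 3 (by norm_num)
  have hnn := fun N m => satProb_nonneg 3 N m
  rw [tendsto_order]
  constructor
  · intro a' ha'
    rcases lt_or_ge a' 0 with h0 | h0
    · filter_upwards with N
      refine lt_of_lt_of_le h0 (div_nonneg ?_ (Nat.cast_nonneg _))
      exact tsum_nonneg fun m => hnn N m
    · set a : ℝ := (a' + α) / 2 with ha
      have ha1 : a' < a := by rw [ha]; linarith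
      have ha2 : a < α := by rw [ha]; linarith
      have ha3 : 0 ≤ a := by linarith
      have hlim := ((hα a ha3).1 ha2).const_mul a
      rw [mul_one] at hlim
      filter_upwards [(tendsto_order.1 hlim).1 a' ha1, Filter.eventually_ge_atTop 3] with N hN hN3
      refine hN.trans_le ?_
      have hNpos : (0 : ℝ) < N := by exact_mod_cast (by omega : 0 < N)
      rw [le_div_iff₀ hNpos]
      have hS := (htail N hN3).1
      have h1 : ∑ m ∈ range (⌊a * N⌋₊ + 1), satProb 3 N m ≤ mu 3 N :=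
        hS.sum_le_tsum _ fun m _ => hnn N m
      have h2 : ((⌊a * N⌋₊ + 1 : ℕ) : ℝ) * satProb 3 N ⌊a * N⌋₊ ≤
          ∑ m ∈ range (⌊a * N⌋₊ + 1), satProb 3 N m := by
        have h3 := Finset.card_nsmul_le_sum (range (⌊a * N⌋₊ + 1)) (fun m => satProb 3 N m)
          (satProb 3 N ⌊a * N⌋₊) (fun m hm => satProb_anti hN3 (Nat.lt_succ_iff.1
            (Finset.mem_range.1 hm)))
        rwa [Finset.card_range, nsmul_eq_mul] at h3
      have h4 : a * N ≤ ((⌊a * N⌋₊ + 1 : ℕ) : ℝ) := by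
        push_cast
        exact (Nat.lt_floor_add_one _).le
      have h5 := mul_le_mul_of_nonneg_right h4 (hnn N ⌊a * N⌋₊)
      calc a * satProb 3 N ⌊a * N⌋₊ * N = a * N * satProb 3 N ⌊a * N⌋₊ := by ring
        _ ≤ _ := h5.trans (h2.trans h1)
  · intro a' ha'
    set a : ℝ := (a' + α) / 2 with ha
    have ha1 : a < a' := by rw [ha]; linarith
    have ha2 : α < a := by rw [ha]; linarith
    have ha3 : 0 ≤ a := by linarith
    have hlim := (hα a ha3).2 ha2
    have hinv : Filter.Tendsto (fun N : ℕ => 1 / (N : ℝ)) Filter.atTop (nhds 0) :=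
      tendsto_one_div_atTop_nhds_zero_nat
    have hlim2 : Filter.Tendsto (fun N : ℕ => a + (a + C0 + 1 / (N : ℝ)) * satProb 3 N ⌊a * N⌋₊ +
        C1 * (1 / (N : ℝ))) Filter.atTop (nhds a) := by
      have := (((hinv.const_add (a + C0)).mul hlim).const_add a).add (hinv.const_mul C1)
      simpa using this
    filter_upwards [(tendsto_order.1 hlim2).2 a' ha1, Filter.eventually_ge_atTop 3] with N hN hN3
    refine lt_of_le_of_lt ?_ hN
    have hNpos : (0 : ℝ) < N := by exact_mod_cast (by omega : 0 < N)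
    rw [div_le_iff₀ hNpos]
    obtain ⟨hS, hS2, hT⟩ := htail N hN3
    rw [lim_alg hNpos]
    exact lim_upper (hnn N) (satProb_le_one 3 N) (fun _ _ h => satProb_anti hN3 h) hS hS2
      (fun M hM => hT M hM) ha3 hC0 hNpos

end Crest.Agent.RS
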