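import Mathlib
import Crest.Agent.RL.Defs
import Crest.Agent.RL.Double
import Crest.Agent.RL.Lim

/-! Chunk R153L-LO: the lower side. -/

set_option autoImplicit false

namespace Crest.Agent.RS

open Finset Crest.ProbabilityR.RandomSAT

/-- iterate `mu_double`: `mu(2^j n)/(2^j n) ≥ mu(n)/n - (C/(2√n)) Σ_{i<j} 2^(-i/2) ≥ mu(n)/n - 2C/√n`
(`Σ 2^(-i/2) ≤ 1/(1-1/√2) ≤ 4`), then `mu_tendsto` along `N = 2^j n`. -/
theorem mu_div_le : ∃ C : ℕ, ∀ α : ℝ, IsSharpThreshold (satProb 3) α → ∀ n : ℕ, 3 ≤ n →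
    mu 3 n / n - C / Real.sqrt n ≤ α := by
  obtain ⟨C, hC, hdouble⟩ := mu_double
  refine ⟨⌈2 * C⌉₊, fun α hα n hn => ?_⟩
  have hn0 : (0 : ℝ) < n := by exact_mod_cast (by omega : 0 < n)
  set ρ : ℝ := 1 / Real.sqrt 2 with hρ
  have h2 : 0 < Real.sqrt 2 := Real.sqrt_pos.mpr (by norm_num)
  have hsq2 : Real.sqrt 2 * Real.sqrt 2 = 2 := Real.mul_self_sqrt (by norm_num)
  have hρ0 : 0 < ρ := by positivity
  have hρ1 : ρ ≤ 3 / 4 := by
    rw [hρ, div_le_iff₀ h2]
    nlinarith [Real.sqrt_nonneg 2]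
  have hsn : 0 < Real.sqrt n := Real.sqrt_pos.mpr hn0
  -- iteration
  have hiter : ∀ j : ℕ, mu 3 n / n - 2 * C / Real.sqrt n * (1 - ρ ^ j) ≤
      mu 3 (2 ^ j * n) / ((2 ^ j * n : ℕ) : ℝ) := by
    intro j
    induction j with
    | zero => simp
    | succ j ih =>
      have hN3 : 3 ≤ 2 ^ j * n := by
        have : 1 ≤ 2 ^ j := Nat.one_le_two_pow
        nlinarith
      have hN0 : (0 : ℝ) < ((2 ^ j * n : ℕ) : ℝ) := by exact_mod_cast (by omega : 0 < 2 ^ j * n)
      have hd := hdouble (2 ^ j * n) hN3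
      have e1 : 2 ^ (j + 1) * n = 2 ^ j * n + 2 ^ j * n := by ring
      have e2 : Real.sqrt ((2 ^ j * n : ℕ) : ℝ) = Real.sqrt n / ρ ^ j := by
        push_cast
        rw [Real.sqrt_mul (by positivity), hρ, one_div, inv_pow, div_inv_eq_mul, mul_comm]
        congr 1
        rw [Real.sqrt_eq_iff_mul_self_eq (by positivity) (by positivity), ← mul_pow, hsq2]
      rw [e1]
      have e3 : mu 3 (2 ^ j * n) / ((2 ^ j * n : ℕ) : ℝ) - C * ρ ^ j / (2 * Real.sqrt n) ≤
          mu 3 (2 ^ j * n + 2 ^ j * n) / ((2 ^ j * n + 2 ^ j * n : ℕ) : ℝ) := by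
        have e4 : ((2 ^ j * n + 2 ^ j * n : ℕ) : ℝ) = 2 * ((2 ^ j * n : ℕ) : ℝ) := by
          push_cast; ring
        rw [e4, le_div_iff₀ (by positivity)]
        refine le_trans (le_of_eq ?_) hd
        have e5 : C * ρ ^ j / (2 * Real.sqrt n) * (2 * ((2 ^ j * n : ℕ) : ℝ)) =
            C * Real.sqrt ((2 ^ j * n : ℕ) : ℝ) := by
          have e6 : ((2 ^ j * n : ℕ) : ℝ) =
              Real.sqrt ((2 ^ j * n : ℕ) : ℝ) * Real.sqrt ((2 ^ j * n : ℕ) : ℝ) :=
            (Real.mul_self_sqrt hN0.le).symm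
          rw [e6, Real.sqrt_mul_self (Real.sqrt_nonneg _), e2]
          field_simp
        rw [sub_mul, e5]
        field_simp
      have e7 : 2 * C / Real.sqrt n * (1 - ρ ^ (j + 1)) - 2 * C / Real.sqrt n * (1 - ρ ^ j) =
          C * ρ ^ j / (2 * Real.sqrt n) * (4 * (1 - ρ)) := by
        rw [pow_succ]
        field_simp
        ring
      have e8 : C * ρ ^ j / (2 * Real.sqrt n) ≤ C * ρ ^ j / (2 * Real.sqrt n) * (4 * (1 - ρ)) := by
        have h0 : 0 ≤ C * ρ ^ j / (2 * Real.sqrt n) := by positivity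
        have h1 : 1 ≤ 4 * (1 - ρ) := by linarith
        exact le_mul_of_one_le_right h0 h1
      linarith
  have hlim := (mu_tendsto hα).comp (f := fun j : ℕ => 2 ^ j * n) (x := Filter.atTop) (by
    refine Filter.tendsto_atTop_mono (fun j => ?_) (tendsto_pow_atTop_atTop_of_one_lt (one_lt_two))
    nlinarith [Nat.one_le_two_pow (n := j)])
  refine ge_of_tendsto' hlim fun j => ?_
  refine le_trans ?_ (hiter j)
  have hceil : 2 * C ≤ (⌈2 * C⌉₊ : ℝ) := Nat.le_ceil _
  have h1 : 2 * C / Real.sqrt n * (1 - ρ ^ j) ≤ 2 * C / Real.sqrt n := by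
    refine mul_le_of_le_one_right (by positivity) ?_
    have : 0 < ρ ^ j := by positivity
    linarith
  have h3 : 2 * C / Real.sqrt n ≤ (⌈2 * C⌉₊ : ℝ) / Real.sqrt n := by gcongr
  linarith

/-- Lower semicomputability in the form used by the computability part: for a fixed natural `C`,
`q < α` iff some finite partial mean certifies it (up to equality). -/
theorem lo_main : ∃ C : ℕ, ∀ α : ℝ, IsSharpThreshold (satProb 3) α →
    (∀ (q : ℝ) (n M : ℕ), 3 ≤ n →
      q + C / Real.sqrt n < (∑ m ∈ range M, satProb 3 n m) / n → q < α) ∧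
    (∀ q : ℝ, q < α → ∃ n M : ℕ, 3 ≤ n ∧
      q + C / Real.sqrt n < (∑ m ∈ range M, satProb 3 n m) / n) := by
  obtain ⟨C, hC⟩ := mu_div_le
  obtain ⟨C0, C1, hC0, htail⟩ := tail 3 (by norm_num)
  refine ⟨C, fun α hα => ⟨fun q n M hn hq => ?_, fun q hq => ?_⟩⟩
  · have hn0 : (0 : ℝ) < n := by exact_mod_cast (by omega : 0 < n)
    have h1 : (∑ m ∈ range M, satProb 3 n m) / n ≤ mu 3 n / n := by
      gcongr
      exact (htail n hn).1.sum_le_tsum _ fun m _ => satProb_nonneg 3 n m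
    have h2 := hC α hα n hn
    linarith
  · have hlim := mu_tendsto hα
    have hs : Filter.Tendsto (fun n : ℕ => (C : ℝ) / Real.sqrt n) Filter.atTop (nhds 0) := by
      refine Filter.Tendsto.div_atTop tendsto_const_nhds ?_
      exact Real.tendsto_sqrt_atTop.comp tendsto_natCast_atTop_atTop
    have hd : Filter.Tendsto (fun n : ℕ => mu 3 n / n - C / Real.sqrt n) Filter.atTop
        (nhds (α - 0)) := hlim.sub hs
    rw [sub_zero] at hd
    obtain ⟨n, hn1, hn3⟩ := (((tendsto_order.1 hd).1 q hq).and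
      (Filter.eventually_ge_atTop 3)).exists
    have hn0 : (0 : ℝ) < n := by exact_mod_cast (by omega : 0 < n)
    have hpart : Filter.Tendsto (fun M : ℕ => (∑ m ∈ range M, satProb 3 n m) / (n : ℝ)) Filter.atTop
        (nhds (mu 3 n / n)) := ((htail n hn3).1.hasSum.tendsto_sum_nat).div_const _
    obtain ⟨M, hM⟩ := ((tendsto_order.1 hpart).1 (q + C / Real.sqrt n) (by linarith)).exists
    exact ⟨n, M, hn3, hM⟩

end Crest.Agent.RS
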